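import Mathlib

/-!
# P097 / (A5), helper624 (9): potential theory on one circle for the LEAF LEMMA

`approx`: real parts of entire functions are dense in C(circle); `harn`: Harnack at half radius;
`pot`: super-mean value inequality at an off-centre point for `min (Re F) c`.
-/

set_option linter.all false

open Complex Metric Set Filter Topology
open scoped Real ComplexConjugate

namespace Vale.Agent.P097.H350

noncomputable section

/-- real parts of entire functions are dense in the continuous functions on a circle -/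
lemma approx {x₀ : ℂ} {r : ℝ} (hr : 0 < r) {u : ℂ → ℝ} (hu : ContinuousOn u (sphere x₀ r)) {ε : ℝ}
    (hε : 0 < ε) : ∃ p : ℂ → ℂ, Differentiable ℂ p ∧ ∀ z ∈ sphere x₀ r, |(p z).re - u z| < ε := by
  haveI : Fact (0 < 2 * π) := ⟨by positivity⟩
  have hmem : ∀ t : AddCircle (2 * π), x₀ + r * (AddCircle.toCircle t : ℂ) ∈ sphere x₀ r := by
    intro t
    simp [mem_sphere_iff_norm, abs_of_pos hr, Circle.norm_coe]
  have hcont : Continuous fun t : AddCircle (2 * π) =>
      ((u (x₀ + r * (AddCircle.toCircle t : ℂ)) : ℝ) : ℂ) := by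
    refine Complex.continuous_ofReal.comp ?_
    refine hu.comp_continuous ?_ hmem
    have : Continuous fun t : AddCircle (2 * π) => (AddCircle.toCircle t : ℂ) :=
      continuous_subtype_val.comp AddCircle.continuous_toCircle
    fun_prop
  let F : C(AddCircle (2 * π), ℂ) :=
    ⟨fun t => ((u (x₀ + r * (AddCircle.toCircle t : ℂ)) : ℝ) : ℂ), hcont⟩
  have key : ∀ f ∈ Submodule.span ℂ (range (@fourier (2 * π))), ∀ a : ℂ,
      ∃ p : ℂ → ℂ, Differentiable ℂ p ∧
        ∀ t, (a * f t).re = (p (AddCircle.toCircle t : ℂ)).re := by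
    intro f hf
    induction hf using Submodule.span_induction with
    | mem f hf =>
      obtain ⟨n, rfl⟩ := hf
      intro a
      rcases Int.le_total 0 n with hn | hn
      · obtain ⟨k, rfl⟩ := Int.eq_ofNat_of_zero_le hn
        refine ⟨fun z => a * z ^ k, by fun_prop, fun t => ?_⟩
        simp [fourier_apply, AddCircle.toCircle_nsmul]
      · obtain ⟨k, hk⟩ := Int.eq_ofNat_of_zero_le (neg_nonneg.2 hn)
        have hk' : n = -(k : ℤ) := by omega
        subst hk'
        refine ⟨fun z => conj a * z ^ k, by fun_prop, fun t => ?_⟩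
        have h1 : (fourier (-(k : ℤ)) t : ℂ) = conj ((AddCircle.toCircle t : ℂ) ^ k) := by
          rw [fourier_neg]
          simp [fourier_apply, AddCircle.toCircle_nsmul]
        rw [h1, ← Complex.conj_re (a * _)]
        simp only [map_mul, Complex.conj_conj]
    | zero => exact fun a => ⟨fun _ => 0, by fun_prop, by simp⟩
    | add f g _ _ hf hg =>
      intro a
      obtain ⟨p, hp, hp'⟩ := hf a
      obtain ⟨q, hq, hq'⟩ := hg a
      refine ⟨fun z => p z + q z, hp.add hq, fun t => ?_⟩
      have h1 := hp' t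
      have h2 := hq' t
      simp only [ContinuousMap.add_apply, mul_add, Complex.add_re] at *
      rw [h1, h2]
    | smul c f _ hf =>
      intro a
      obtain ⟨p, hp, hp'⟩ := hf (a * c)
      refine ⟨p, hp, fun t => ?_⟩
      rw [← hp' t]
      simp [mul_assoc]
  have hd : F ∈ (Submodule.span ℂ (range (@fourier (2 * π)))).topologicalClosure := by
    rw [span_fourier_closure_eq_top]; trivial
  have hd' : F ∈ closure (Submodule.span ℂ (range (@fourier (2 * π))) : Set C(AddCircle (2 * π), ℂ)) := hd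
  obtain ⟨g, hg, hgF⟩ := Metric.mem_closure_iff.1 hd' ε hε
  obtain ⟨p, hp, hpg⟩ := key g hg 1
  refine ⟨fun z => p ((z - x₀) / r), ?_, ?_⟩
  · exact hp.comp (by fun_prop)
  intro z hz
  have hr' : (r : ℂ) ≠ 0 := by exact_mod_cast hr.ne'
  have hw : ‖(z - x₀) / r‖ = 1 := by
    rw [norm_div, mem_sphere_iff_norm.1 hz]
    simp [abs_of_pos hr, hr.ne']
  set w : ℂ := (z - x₀) / r with hwdef
  let t : AddCircle (2 * π) := ((arg w : ℝ) : AddCircle (2 * π))
  have ht : (AddCircle.toCircle t : ℂ) = w := by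
    have h1 : AddCircle.toCircle t = Circle.exp (arg w) := by
      rw [AddCircle.toCircle_apply_mk]
      congr 1
      field_simp
    rw [h1, Circle.coe_exp]
    have h2 := Complex.norm_mul_exp_arg_mul_I w
    rw [hw] at h2
    simpa using h2
  have hz' : x₀ + r * w = z := by
    rw [hwdef]; field_simp; ring
  have h1 : dist F g < ε := hgF
  have h2 : ‖F t - g t‖ < ε := lt_of_le_of_lt (by simpa [dist_eq_norm] using ContinuousMap.dist_apply_le_dist (f := F) (g := g) t) h1
  have h3 : (F t : ℂ) = ((u z : ℝ) : ℂ) := by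
    show ((u (x₀ + r * (AddCircle.toCircle t : ℂ)) : ℝ) : ℂ) = _
    rw [ht, hz']
  have h4 := hpg t
  rw [one_mul, ht] at h4
  show |(p w).re - u z| < ε
  rw [← h4]
  rw [h3] at h2
  have h5 := Complex.abs_re_le_norm (((u z : ℝ) : ℂ) - g t)
  rw [Complex.sub_re, Complex.ofReal_re] at h5
  rw [abs_sub_comm]
  exact lt_of_le_of_lt h5 h2

/-- Harnack at half radius for the real part of an entire function positive on the disc -/
lemma harn {x₀ : ℂ} {r : ℝ} (hr : 0 < r) {p : ℂ → ℂ} (hp : Differentiable ℂ p)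
    (hpos : ∀ z ∈ ball x₀ r, 0 < (p z).re) {z : ℂ} (hz : ‖z - x₀‖ ≤ r / 2) :
    (p x₀).re ≤ 3 * (p z).re := by
  have hx0 : x₀ ∈ ball x₀ r := mem_ball_self hr
  have hzb : z ∈ ball x₀ r := by rw [mem_ball_iff_norm]; linarith
  have hne : ∀ y ∈ ball x₀ r, p y + conj (p x₀) ≠ 0 := by
    intro y hy h
    have := congrArg Complex.re h
    simp at this
    linarith [hpos y hy, hpos x₀ hx0]
  let g : ℂ → ℂ := fun y => (p y - p x₀) / (p y + conj (p x₀))
  have hid : ∀ a b : ℂ, normSq (a + conj b) = normSq (a - b) + 4 * (a.re * b.re) := by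
    intro a b
    simp only [normSq_apply, add_re, add_im, sub_re, sub_im, conj_re, conj_im]
    ring
  have hg1 : DifferentiableOn ℂ g (ball x₀ r) := by
    refine DifferentiableOn.div (hp.sub_const _).differentiableOn
      (hp.add_const _).differentiableOn hne
  have hg0 : g x₀ = 0 := by simp [g]
  have hmap : MapsTo g (ball x₀ r) (ball (g x₀) 1) := by
    intro y hy
    rw [hg0, mem_ball_zero_iff]
    show ‖(p y - p x₀) / (p y + conj (p x₀))‖ < 1
    rw [norm_div, div_lt_one (norm_pos_iff.2 (hne y hy))]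
    have h1 := hid (p y) (p x₀)
    have h2 : 0 < (p y).re * (p x₀).re := mul_pos (hpos y hy) (hpos x₀ hx0)
    rw [normSq_eq_norm_sq, normSq_eq_norm_sq] at h1
    nlinarith [norm_nonneg (p y - p x₀), norm_nonneg (p y + conj (p x₀))]
  have hs := Complex.dist_le_div_mul_dist_of_mapsTo_ball hg1
    (hmap.mono_right ball_subset_closedBall) hzb
  rw [hg0, dist_zero_right, dist_eq_norm] at hs
  have hs2 : ‖g z‖ ≤ 1 / 2 := by
    refine hs.trans ?_
    rw [div_mul_eq_mul_div, one_mul, div_le_iff₀ hr]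
    linarith
  have hgz : ‖p z - p x₀‖ ≤ 1 / 2 * ‖p z + conj (p x₀)‖ := by
    have : ‖g z‖ = ‖p z - p x₀‖ / ‖p z + conj (p x₀)‖ := norm_div _ _
    rw [this, div_le_iff₀ (norm_pos_iff.2 (hne z hzb))] at hs2
    exact hs2
  have h1 := hid (p z) (p x₀)
  rw [normSq_eq_norm_sq, normSq_eq_norm_sq] at h1
  have h2 : (p z).re + (p x₀).re ≤ ‖p z + conj (p x₀)‖ := by
    have := Complex.re_le_norm (p z + conj (p x₀))
    simpa using this
  set A := (p z).re
  set B := (p x₀).re
  have hA : 0 < A := hpos z hzb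
  have hB : 0 < B := hpos x₀ hx0
  set S := ‖p z + conj (p x₀)‖
  set D := ‖p z - p x₀‖
  have hD : 0 ≤ D := norm_nonneg _
  have h3 : D ^ 2 ≤ 1 / 4 * S ^ 2 := by nlinarith
  have h4 : (A + B) ^ 2 ≤ S ^ 2 := by nlinarith
  have h5 : 3 * (A + B) ^ 2 ≤ 16 * (A * B) := by nlinarith
  have h6 : (3 * A - B) * (A - 3 * B) ≤ 0 := by nlinarith
  by_contra hcon
  push Not at hcon
  nlinarith

end

end Vale.Agent.P097.H350
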