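import Vale.Agent.P097.H350.Leaf1

/-!
# P097 / (A5), helper624 (9): super-mean value inequality for `min (Re F) c`
-/

set_option linter.all false

open Complex Metric Set Filter Topology
open scoped Real ComplexConjugate

namespace Vale.Agent.P097.H350

/-- maximum principle on a ball: real parts of entire functions -/
lemma re_le_of_sphere {x₀ : ℂ} {r : ℝ} (hr : 0 < r) {p : ℂ → ℂ} (hp : Differentiable ℂ p) {c : ℝ}
    (h : ∀ z ∈ sphere x₀ r, (p z).re ≤ c) {z : ℂ} (hz : z ∈ closedBall x₀ r) : (p z).re ≤ c := by
  have h1 : ‖cexp (p z)‖ ≤ Real.exp c := by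
    refine Complex.norm_le_of_forall_mem_frontier_norm_le (U := ball x₀ r) isBounded_ball
      (f := fun z => cexp (p z)) (hp.cexp).diffContOnCl ?_ ?_
    · intro y hy
      rw [frontier_ball _ hr.ne'] at hy
      show ‖cexp (p y)‖ ≤ Real.exp c
      rw [Complex.norm_exp]
      exact Real.exp_le_exp.2 (h y hy)
    · rw [closure_ball _ hr.ne']; exact hz
  rw [Complex.norm_exp] at h1
  exact Real.exp_le_exp.1 h1

theorem pot {x₀ : ℂ} {r : ℝ} (hr : 0 < r) {V : Set ℂ} (hV : IsOpen V) {F : ℂ → ℂ}
    (hF : DifferentiableOn ℂ F V) {c : ℝ} (hc : 0 < c) {s : ℂ → ℝ}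
    (hs1 : ∀ x ∈ V, s x = min (F x).re c) (hs2 : ∀ x, x ∉ V → s x = c)
    (hpos : ∀ x ∈ V, x ∈ closedBall x₀ r → 0 < (F x).re)
    (hprop : ∀ y ∈ closedBall x₀ r, y ∉ V → ∀ᶠ x in 𝓝 y, x ∈ V → c < (F x).re) :
    ContinuousOn s (closedBall x₀ r) ∧
      ∀ z, ‖z - x₀‖ ≤ r / 2 → Real.circleAverage s x₀ r ≤ 3 * s z := by
  have hsc : ∀ x, s x ≤ c := by
    intro x
    by_cases hx : x ∈ V
    · rw [hs1 x hx]; exact min_le_right _ _
    · rw [hs2 x hx]
  have hcont : ContinuousOn s (closedBall x₀ r) := by
    intro y hy
    refine ContinuousAt.continuousWithinAt ?_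
    by_cases hyV : y ∈ V
    · have h1 : ContinuousAt (fun x => min (F x).re c) y := by
        have : ContinuousAt F y := (hF.differentiableAt (hV.mem_nhds hyV)).continuousAt
        exact (Complex.continuous_re.continuousAt.comp this).min continuousAt_const
      refine h1.congr ?_
      filter_upwards [hV.mem_nhds hyV] with x hx
      exact (hs1 x hx).symm
    · have h1 : ContinuousAt (fun _ : ℂ => c) y := continuousAt_const
      refine h1.congr ?_
      filter_upwards [hprop y hy hyV] with x hx
      by_cases hxV : x ∈ V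
      · rw [hs1 x hxV, min_eq_right (hx hxV).le]
      · rw [hs2 x hxV]
  refine ⟨hcont, fun z hz => ?_⟩
  have hspos : ∀ x ∈ closedBall x₀ r, 0 < s x := by
    intro x hx
    by_cases hxV : x ∈ V
    · rw [hs1 x hxV]; exact lt_min (hpos x hxV hx) hc
    · rw [hs2 x hxV]; exact hc
  have hcS : ContinuousOn s (sphere x₀ r) := hcont.mono sphere_subset_closedBall
  obtain ⟨s₀, hs₀, hs₀'⟩ : ∃ s₀ > 0, ∀ x ∈ sphere x₀ r, s₀ ≤ s x := by
    have hne : (sphere x₀ r).Nonempty := NormedSpace.sphere_nonempty.2 hr.le
    obtain ⟨y, hy, hmin⟩ := (isCompact_sphere x₀ r).exists_isMinOn hne hcS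
    exact ⟨s y, hspos y (sphere_subset_closedBall hy), fun x hx => hmin hx⟩
  refine le_of_forall_pos_le_add fun ε hε => ?_
  obtain ⟨e, he, he1, he2⟩ : ∃ e > 0, 4 * e ≤ s₀ ∧ 3 * e ≤ ε :=
    ⟨min (s₀ / 4) (ε / 3), lt_min (by linarith) (by linarith), by
      have := min_le_left (s₀ / 4) (ε / 3); linarith, by
      have := min_le_right (s₀ / 4) (ε / 3); linarith⟩
  obtain ⟨p, hp, hpa⟩ := approx hr (u := fun x => s x - 2 * e) (hcS.sub continuousOn_const) he
  have hup : ∀ x ∈ sphere x₀ r, (p x).re ≤ s x := by
    intro x hx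
    have := (abs_lt.1 (hpa x hx)).2
    linarith
  have hlow : ∀ x ∈ sphere x₀ r, s x - 3 * e ≤ (p x).re := by
    intro x hx
    have := (abs_lt.1 (hpa x hx)).1
    linarith
  have hppos : ∀ x ∈ ball x₀ r, 0 < (p x).re := by
    intro x hx
    have h1 := re_le_of_sphere hr (p := fun x => - p x) hp.neg (c := -e) (fun y hy => by
      have h1 := hlow y hy
      have h2 := hs₀' y hy
      simp only [neg_re]
      linarith) (ball_subset_closedBall hx)
    simp only [neg_re] at h1
    linarith
  have hpc : ∀ x ∈ closedBall x₀ r, (p x).re ≤ c := fun x hx =>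
    re_le_of_sphere hr hp (fun y hy => (hup y hy).trans (hsc y)) hx
  -- comparison
  have hcomp : ∀ x ∈ ball x₀ r, (p x).re ≤ s x := by
    intro x hx
    set W : Set ℂ := {y | y ∈ ball x₀ r ∧ y ∈ V ∧ (F y).re < c} with hW
    by_cases hxW : x ∈ W
    · have hclV : closure W ⊆ V := by
        intro y hy
        by_contra hyV
        have hyb : y ∈ closedBall x₀ r := by
          rw [← closure_ball _ hr.ne']
          exact closure_mono (fun w hw => hw.1) hy
        have h1 := hprop y hyb hyV
        rw [mem_closure_iff_frequently] at hy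
        obtain ⟨w, hw1, hw2⟩ := (hy.and_eventually h1).exists
        exact absurd hw1.2.2 (not_lt.2 (hw2 hw1.2.1).le)
      have hWo : IsOpen W := by
        have h1 : IsOpen (V ∩ F ⁻¹' {w | w.re < c}) :=
          hF.continuousOn.isOpen_inter_preimage hV (isOpen_lt Complex.continuous_re continuous_const)
        have : W = ball x₀ r ∩ (V ∩ F ⁻¹' {w | w.re < c}) := by
          ext y; simp [hW]
        rw [this]
        exact isOpen_ball.inter h1
      have hd : DiffContOnCl ℂ (fun y => cexp (p y - F y)) W := by
        refine DifferentiableOn.diffContOnCl ?_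
        exact ((hp.differentiableOn).sub (hF.mono hclV)).cexp
      have hb : Bornology.IsBounded W := isBounded_ball.subset (fun w hw => hw.1)
      have h1 := Complex.norm_le_of_forall_mem_frontier_norm_le hb hd (C := 1) (fun y hy => by
        show ‖cexp (p y - F y)‖ ≤ 1
        rw [Complex.norm_exp, ← Real.exp_zero]
        refine Real.exp_le_exp.2 ?_
        rw [Complex.sub_re]
        rw [hWo.frontier_eq] at hy
        obtain ⟨hy1, hy2⟩ := hy
        have hyV : y ∈ V := hclV hy1
        have hyb : y ∈ closedBall x₀ r := by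
          rw [← closure_ball _ hr.ne']
          exact closure_mono (fun w hw => hw.1) hy1
        by_cases hyB : y ∈ ball x₀ r
        · have : c ≤ (F y).re := by
            by_contra hlt
            exact hy2 ⟨hyB, hyV, not_le.1 hlt⟩
          linarith [hpc y hyb]
        · have hyS : y ∈ sphere x₀ r := by
            rw [mem_sphere]
            rw [mem_closedBall] at hyb
            rw [mem_ball, not_lt] at hyB
            exact le_antisymm hyb hyB
          have h2 := hup y hyS
          rw [hs1 y hyV] at h2
          linarith [min_le_left (F y).re c]) (subset_closure hxW)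
      rw [Complex.norm_exp, ← Real.exp_zero] at h1
      have h2 := Real.exp_le_exp.1 h1
      rw [Complex.sub_re] at h2
      rw [hs1 x hxW.2.1, le_min_iff]
      exact ⟨by linarith, hpc x (ball_subset_closedBall hx)⟩
    · have h1 : s x = c := by
        by_cases hxV : x ∈ V
        · rw [hs1 x hxV, min_eq_right]
          by_contra hlt
          exact hxW ⟨hx, hxV, not_le.1 hlt⟩
        · exact hs2 x hxV
      rw [h1]
      exact hpc x (ball_subset_closedBall hx)
  have hzb : z ∈ ball x₀ r := by rw [mem_ball_iff_norm]; linarith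
  have h1 := harn hr hp hppos hz
  have h2 := hcomp z hzb
  -- mean value
  have hmean : Real.circleAverage (fun x => (p x).re) x₀ r = (p x₀).re := by
    have h3 : Real.circleAverage p x₀ r = p x₀ :=
      DiffContOnCl.circleAverage (f := p) (R := r) (c := x₀) hp.diffContOnCl
    have hci : CircleIntegrable p x₀ r :=
      ContinuousOn.circleIntegrable' hp.continuous.continuousOn
    have h4 : Real.circleAverage (fun x => (p x).re) x₀ r = (Real.circleAverage p x₀ r).re := by
      unfold Real.circleAverage
      rw [Complex.smul_re, smul_eq_mul, smul_eq_mul]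
      congr 1
      have hii : IntervalIntegrable (fun θ => p (circleMap x₀ r θ)) MeasureTheory.volume 0 (2 * π) := hci
      have := Complex.reCLM.intervalIntegral_comp_comm hii
      simpa using this
    rw [h4, h3]
  have hcs : CircleIntegrable s x₀ r := ContinuousOn.circleIntegrable hr.le hcS
  have hcp : CircleIntegrable (fun x => (p x).re) x₀ r :=
    ContinuousOn.circleIntegrable hr.le (Complex.continuous_re.comp hp.continuous).continuousOn
  have h5 : Real.circleAverage s x₀ r ≤ Real.circleAverage (fun x => (p x).re + 3 * e) x₀ r := by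
    refine Real.circleAverage_mono hcs ?_ ?_
    · exact ContinuousOn.circleIntegrable hr.le
        (((Complex.continuous_re.comp hp.continuous).add continuous_const).continuousOn)
    · intro x hx
      rw [abs_of_pos hr] at hx
      have := hlow x hx
      show s x ≤ (p x).re + 3 * e
      linarith
  have h6 : Real.circleAverage (fun x => (p x).re + 3 * e) x₀ r = (p x₀).re + 3 * e := by
    rw [Real.circleAverage_fun_add hcp (by simp), hmean, Real.circleAverage_const]
  rw [h6] at h5
  linarith

end Vale.Agent.P097.H350
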